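import Vale.Agent.P030.H250.Geo3
import Vale.Agent.P030.AR.NInst

/-!
# P030, route N: the inequalities (n1), (n2), (n3) of `AR.NStar.stAR_N` from a decidable check and
the comparisons on finitely many wall pieces (helper250)
-/

open Set
open Vale.Agent.P030.H580 Vale.Agent.P030.H532

namespace Vale.Agent.P030.H250

/-- all data of the geometry: upper tree, integer walls, radii of the cusp circles, pieces of the
upper walls, of the real line and of the cusp circles, patterns -/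
structure GeoN (N n m : ℕ) where
  TU : WTree (Fin n) (Fin N)
  wi : Fin n → Wall
  rn : Fin 4 → ℕ
  rd : Fin 4 → ℕ
  pu : Fin n → List PP
  pa : List PP
  pc : Fin 4 → List PP
  pI : Fin N → Fin N → Fin m → Fin m → Bool
  pR : Fin N → Fin 4 → Fin m → Fin m → Bool
  kc : Fin 4 → Fin N
  pC : Fin 4 → Fin m → Fin m → Bool

namespace GeoN
variable {N n m : ℕ} (G : GeoN N n m)

/-- the piece may meet the closed upper half plane outside of the cusp discs -/
def ctx (P : Pc) : Bool :=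
  !(P.neg imW) && !(P.neg (cwI 0 (G.rn 0) (G.rd 0))) && !(P.neg (cwI 1 (G.rn 1) (G.rd 1))) &&
    !(P.neg (cwI 2 (G.rn 2) (G.rd 2))) && !(P.pos (cwI 3 (G.rn 3) (G.rd 3)))

/-- the check for the upper walls -/
def chkI : Bool :=
  (epairs G.wi G.pu G.ctx G.TU).all fun x =>
    Geom.has x.1 fun b c => G.pI x.2.1 x.2.2 b c || G.pI x.2.2 x.2.1 b c

/-- the check for the real line -/
def chkA : Bool :=
  G.pa.all fun p => !(G.ctx p.P) || ((crl G.wi p.P G.TU []).all fun a =>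
    (List.finRange 4).all fun q => !(Geom.qok p.P q) || Geom.has p (G.pR a.1 q))

/-- the check for the cusp circles -/
def chkC : Bool :=
  (List.finRange 4).all fun c => (G.pc c).all fun p => p.P.neg imW ||
    (((crl G.wi p.P G.TU []).all fun a => a.1 == G.kc c) && Geom.has p (G.pC c))

/-- the comparisons listed for the piece hold in the closed upper half plane -/
def Good (W : Fin m → ℂ → ℝ) (p : PP) : Prop :=
  ∀ z, p.P.On z → 0 ≤ z.im → ∀ b c : Fin m, (b.val, c.val) ∈ p.prs → W b z ≤ W c z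

variable {ρ : Fin 4 → ℝ} {w : Fin n → H580.Wall}

theorem ctx_sound (hρ : ∀ c, ρ c = G.rn c / G.rd c) (hd : ∀ c, 0 < G.rd c)
    {z : ℂ} (him : 0 ≤ z.im) (hD : z ∈ AR.Dom ρ) {P : Pc} (hz : P.On z) : G.ctx P = true :=
  Geom.ctx_sound (m := m) ⟨G.TU, G.wi, G.rn, G.rd, G.pu, G.pa, G.pc, G.pI,
    fun _ _ _ _ => true, fun _ _ _ _ => true⟩ hρ hd him hD hz

theorem mem_Sq_qz {z : ℂ} (hρ : ∀ c, 0 < ρ c) (hD : z ∈ AR.Dom ρ) (him : z.im = 0) :
    z ∈ H265.Sq (AR.FPat.qz z) := by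
  obtain ⟨d0, d1, d2, _⟩ := hD
  have hre : (H265.yz z).re = 1 - 2 * z.re := by simp [H265.yz]
  have n0 : z.re ≠ 0 := by
    intro h
    have : z = 0 := Complex.ext (by simpa using h) (by simpa using him)
    rw [this, norm_zero] at d2
    linarith [hρ 2]
  have n1 : z.re ≠ 1 := by
    intro h
    have : z = 1 := Complex.ext (by simpa using h) (by simpa using him)
    rw [this, sub_self, norm_zero] at d0
    linarith [hρ 0]
  have n2 : z.re ≠ 1 / 2 := by
    intro h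
    have : z = 1 / 2 := Complex.ext (by rw [h]; norm_num) (by rw [him]; norm_num)
    rw [this, sub_self, norm_zero] at d1
    linarith [hρ 1]
  obtain ⟨q, hq⟩ := exists_Jv (x := (H265.yz z).re)
    (by rw [hre]; intro h; exact n1 (by linarith))
    (by rw [hre]; intro h; exact n2 (by linarith))
    (by rw [hre]; intro h; exact n0 (by linarith))
  have e : AR.FPat.qz z = q := qy_of_mem hq
  rw [e]
  exact hq

/-- **(n1)** -/
theorem n1 (hw : SameSign (fun j => (w j).fn) G.wi) (hρ : ∀ c, ρ c = G.rn c / G.rd c)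
    (hρ0 : ∀ c, 0 < ρ c) (hd : ∀ c, 0 < G.rd c)
    (ca : ∀ z, imW.fn z = 0 → ∃ p ∈ G.pa, p.P.On z) (c2 : G.chkA = true)
    {pR : Fin N → Fin 4 → Fin m → Fin m → Prop}
    (hR : ∀ k q b c, pR k q b c → G.pR k q b c = true) {W : Fin m → ℂ → ℝ}
    (ga : ∀ p ∈ G.pa, Good W p) :
    ∀ z ∈ AR.Dom ρ, z.im = 0 → ∀ b c, pR (AR.can (fun j => (w j).fn) G.TU z) (AR.FPat.qz z) b c →
      W c z ≤ W b z := by
  intro z hz him b c hp
  by_cases hbc : b = c
  · rw [hbc]
  obtain ⟨p, hp1, hp2⟩ := ca z (by rw [imW_fn]; exact him)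
  have h1 : G.ctx p.P = true := G.ctx_sound hρ hd him.ge hz hp2
  unfold chkA at c2
  rw [List.all_eq_true] at c2
  have h2 := c2 p hp1
  rw [h1] at h2
  simp only [Bool.not_true, Bool.false_or] at h2
  rw [List.all_eq_true] at h2
  obtain ⟨asm', ha, _⟩ := mem_crl hw hp2 G.TU [] (by intro x hx; simp at hx)
  have h3 := h2 _ ha
  rw [List.all_eq_true] at h3
  have h4 := h3 (AR.FPat.qz z) (List.mem_finRange _)
  rw [Geom.qok_sound hp2 (mem_Sq_qz hρ0 hz him)] at h4
  simp only [Bool.not_true, Bool.false_or] at h4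
  exact ga p hp1 z hp2 him.ge _ _ (Geom.has_sound h4 (hR _ _ _ _ hp) hbc)

/-- **(n2)** -/
theorem n2 (hw : SameSign (fun j => (w j).fn) G.wi) (hρ : ∀ c, ρ c = G.rn c / G.rd c)
    (hd : ∀ c, 0 < G.rd c)
    (cu : ∀ j z, (G.wi j).fn z = 0 → ∃ p ∈ G.pu j, p.P.On z) (c1 : G.chkI = true)
    {pI : Fin N → Fin N → Fin m → Fin m → Prop}
    (hI : ∀ k k' b c, pI k k' b c → G.pI k k' b c = true) {W : Fin m → ℂ → ℝ}
    (gu : ∀ j, ∀ p ∈ G.pu j, Good W p) :
    AR.Edges (fun j => (w j).fn)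
      (fun k k' z => ∀ b c, (pI k k' b c ∨ pI k' k b c) → W c z ≤ W b z)
      {z | 0 ≤ z.im ∧ z ∈ AR.Dom ρ} G.TU := by
  refine edges_of_epairs hw (pcs := G.pu) G.TU G.ctx _ ?_ ?_ ?_
  · rintro z ⟨h1, h2⟩ P hP
    exact G.ctx_sound hρ hd h1 h2 hP
  · exact fun j _ z _ h0 => cu j z h0
  · intro x hx z hz hOn b c hp
    by_cases hbc : b = c
    · rw [hbc]
    unfold chkI at c1
    rw [List.all_eq_true] at c1
    have h1 := c1 x hx
    have h2 : (G.pI x.2.1 x.2.2 b c || G.pI x.2.2 x.2.1 b c) = true := by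
      rw [Bool.or_eq_true]
      rcases hp with h | h
      · exact Or.inl (hI _ _ _ _ h)
      · exact Or.inr (hI _ _ _ _ h)
    obtain ⟨j, hj⟩ := mem_epairs hx
    exact gu j x.1 hj z hOn hz.1 _ _ (Geom.has_sound h1 h2 hbc)

/-- **(n3)** -/
theorem n3 (hw : SameSign (fun j => (w j).fn) G.wi) (hρ : ∀ c, ρ c = G.rn c / G.rd c)
    (hd : ∀ c, 0 < G.rd c)
    (cc : ∀ c z, (cwI c (G.rn c) (G.rd c)).fn z = 0 → ∃ p ∈ G.pc c, p.P.On z)
    (c3 : G.chkC = true) {pC : Fin 4 → Fin m → Fin m → Prop}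
    (hC : ∀ c b b', pC c b b' → G.pC c b b' = true) {W : Fin m → ℂ → ℝ}
    (gc : ∀ c, ∀ p ∈ G.pc c, Good W p) :
    ∀ c z, ‖z - AR.cen c‖ = ρ c → 0 ≤ z.im →
      AR.can (fun j => (w j).fn) G.TU z = G.kc c ∧ ∀ b b', pC c b b' → W b' z ≤ W b z := by
  intro c z hz him
  have h0 : (cwI c (G.rn c) (G.rd c)).fn z = 0 :=
    le_antisymm (cwI_nonpos (hd c) (hρ c) hz.le) (cwI_nonneg (hd c) (hρ c) hz.ge)
  obtain ⟨p, hp1, hp2⟩ := cc c z h0
  unfold chkC at c3
  rw [List.all_eq_true] at c3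
  have h1 := c3 c (List.mem_finRange c)
  rw [List.all_eq_true] at h1
  have h2 := h1 p hp1
  have e0 : p.P.neg imW = false := by
    by_contra hc
    rw [Bool.not_eq_false] at hc
    have := p.P.neg_sound hc hp2
    rw [imW_fn] at this
    linarith
  rw [e0, Bool.false_or, Bool.and_eq_true, List.all_eq_true] at h2
  obtain ⟨asm', ha, _⟩ := mem_crl hw hp2 G.TU [] (by intro x hx; simp at hx)
  have h3 := h2.1 _ ha
  refine ⟨by simpa using h3, fun b b' hp => ?_⟩
  by_cases hbc : b = b'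
  · rw [hbc]
  exact gc c p hp1 z hp2 him _ _ (Geom.has_sound h2.2 (hC _ _ _ hp) hbc)

end GeoN

end Vale.Agent.P030.H250
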