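import Vale.Agent.P030.H250.OnI
import Vale.Agent.P030.H69.ChunkI
import Vale.Agent.P030.H532.Main

/-!
# P030, route N: one chunk of the wall engine as `OnI`; literal pieces (helper250)
-/

open Set
open Vale.Agent.P030.H580 Vale.Agent.P030.H532 Vale.Agent.P030.H440 Vale.Agent.P030.H440.Bd

namespace Vale.Agent.P030.H250

/-- **one chunk** -/
theorem chunk_onI {D : KTab} (hD : D.ok = true) {p : Piece} {s : ℕ} {pc : PC}
    {t0 t1 : ℕ} (hp : H69.pcOkI D.N p s pc = true) {cs : List ℕ} (hcs : csOk cs D.G = true)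
    {prs : List (ℕ × ℕ)} (hprs : (prs.all fun x => decide (x.1 < 8 ∧ x.2 < 8)) = true)
    {cmps : List Cmp} (hc : cmps = prs.map (D.mkC cs)) {cls : List Cell}
    (hl : t0 < t1 ∧ t1 ≤ t0 + len cls)
    (h : chunk pc D.ents cmps cls t0 t1 = true) : OnI D.toTab.W p prs t0 t1 := by
  have hne : cls ≠ [] := by
    rintro rfl
    have : len [] = 0 := rfl
    rw [this] at hl
    omega
  rw [List.all_eq_true] at hprs
  intro t g0 g1 hd him
  refine H69.chunk_soundI Lw.lgSpec hD hp hcs (fun x hx => of_decide_eq_true (hprs x hx)) hc hne h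
    (by simpa using g0) (by simpa using g1) ?_ hd him
  have g2 : (t1 : ℝ) ≤ t0 + len cls := by exact_mod_cast hl.2
  have g3 : t ≤ (t1 : ℝ) := by simpa using g1
  linarith

/-! ### literal pieces -/

/-- the same piece with the same parameters -/
def Pc.eqb (P Q : Pc) : Bool :=
  decide (P.p.ax = Q.p.ax) && decide (P.p.ay = Q.p.ay) && decide (P.p.ax' = Q.p.ax') &&
    decide (P.p.ay' = Q.p.ay') && decide (P.p.bx = Q.p.bx) && decide (P.p.By = Q.p.By) &&
    decide (P.p.bx' = Q.p.bx') && decide (P.p.by' = Q.p.by') &&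
    decide (P.t0 = Q.t0) && decide (P.t1 = Q.t1)

theorem Pc.eqb_spec {P Q : Pc} (h : P.eqb Q = true) : P = Q := by
  obtain ⟨⟨a1, a2, a3, a4, a5, a6, a7, a8⟩, a9, a10⟩ := P
  obtain ⟨⟨b1, b2, b3, b4, b5, b6, b7, b8⟩, b9, b10⟩ := Q
  simp only [Pc.eqb, Bool.and_eq_true, decide_eq_true_eq] at h
  obtain ⟨⟨⟨⟨⟨⟨⟨⟨⟨h1, h2⟩, h3⟩, h4⟩, h5⟩, h6⟩, h7⟩, h8⟩, h9⟩, h10⟩ := h
  subst h1 h2 h3 h4 h5 h6 h7 h8 h9 h10
  rfl

/-- the piece `q` needs nothing or is one of the literal pieces -/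
def inLit (lit : List PP) (q : PP) : Bool :=
  q.prs.isEmpty || lit.any fun r => r.P.eqb q.P && q.prs.all fun x => r.prs.contains x

/-- the property of a literal piece -/
def PP.Ok (W : ℕ → ℂ → ℝ) (q : PP) : Prop := OnI W q.P.p q.prs q.P.t0 q.P.t1

theorem inLit_ok {W : ℕ → ℂ → ℝ} {lit : List PP} (hl : ∀ q ∈ lit, q.Ok W) {q : PP}
    (h : inLit lit q = true) : q.Ok W := by
  rw [inLit, Bool.or_eq_true] at h
  rcases h with h | h
  · intro t _ _ _ _ x hx
    rw [List.isEmpty_iff] at h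
    rw [h] at hx
    exact absurd hx List.not_mem_nil
  · rw [List.any_eq_true] at h
    obtain ⟨r, hr, h1⟩ := h
    rw [Bool.and_eq_true] at h1
    obtain ⟨h2, h3⟩ := h1
    have h4 := hl r hr
    rw [PP.Ok, Pc.eqb_spec h2] at h4
    exact h4.sub h3

/-- **from the literal pieces to the pieces of the geometry** -/
theorem good_lit {W : ℕ → ℂ → ℝ} {m : ℕ} {lit : List PP} (hl : ∀ q ∈ lit, q.Ok W) {l : List PP}
    (h : (l.all (inLit lit)) = true) : ∀ q ∈ l, GeoN.Good (fun b : Fin m => W b.val) q := by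
  rw [List.all_eq_true] at h
  exact fun q hq => OnI.good (inLit_ok hl (h q hq))

/-- the check for all pieces of a geometry -/
def GeoN.allLit {N n m : ℕ} (G : GeoN N n m) (lit : List PP) : Bool :=
  (List.finRange n).all (fun j => (G.pu j).all (inLit lit)) && G.pa.all (inLit lit) &&
    (List.finRange 4).all fun c => (G.pc c).all (inLit lit)

/-- **`gu`, `ga`, `gc` of `GeoN.n1`, `n2`, `n3`** -/
theorem GeoN.good_of_allLit {N n m : ℕ} {G : GeoN N n m} {lit : List PP}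
    (h : G.allLit lit = true) {W : ℕ → ℂ → ℝ} (hl : ∀ q ∈ lit, q.Ok W) :
    (∀ j, ∀ p ∈ G.pu j, GeoN.Good (fun b : Fin m => W b.val) p) ∧
      (∀ p ∈ G.pa, GeoN.Good (fun b : Fin m => W b.val) p) ∧
      ∀ c, ∀ p ∈ G.pc c, GeoN.Good (fun b : Fin m => W b.val) p := by
  rw [GeoN.allLit, Bool.and_eq_true, Bool.and_eq_true] at h
  obtain ⟨⟨h1, h2⟩, h3⟩ := h
  rw [List.all_eq_true] at h1 h3
  exact ⟨fun j => good_lit hl (h1 j (List.mem_finRange j)), good_lit hl h2,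
    fun c => good_lit hl (h3 c (List.mem_finRange c))⟩

theorem PP.ok_nil {W : ℕ → ℂ → ℝ} : ∀ q ∈ ([] : List PP), q.Ok W :=
  fun q hq => absurd hq List.not_mem_nil

theorem PP.ok_cons {W : ℕ → ℂ → ℝ} {q : PP} {l : List PP} (h : q.Ok W) (h' : ∀ q ∈ l, q.Ok W) :
    ∀ r ∈ q :: l, r.Ok W := by
  intro r hr
  rcases List.mem_cons.1 hr with rfl | hr
  · exact h
  · exact h' r hr

theorem PP.ok_append {W : ℕ → ℂ → ℝ} {l l' : List PP} (h : ∀ q ∈ l, q.Ok W)
    (h' : ∀ q ∈ l', q.Ok W) : ∀ r ∈ l ++ l', r.Ok W := by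
  intro r hr
  rcases List.mem_append.1 hr with hr | hr
  · exact h r hr
  · exact h' r hr

end Vale.Agent.P030.H250
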