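import Vale.Agent.P030.H580.Glue
import Vale.Agent.P030.H532.Table

/-!
# P030, route N: walls, charts, pieces and the list of required comparisons (helper250)

Walls are the zero sets of `A |z|² + B x + D y + C` with integer coefficients.  A wall is covered by
the pieces of a chain of rational points of its chart (a Moebius image of the real line).  `pairs`
computes, for a decision tree of walls, all triples (piece, cell, cell) which can meet;
`exists_pair` : every point of two different closed cells lies on such a piece.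
-/

open Set
open Vale.Agent.P030.H580 Vale.Agent.P030.H532

namespace Vale.Agent.P030.H250

/-- a wall -/
structure Wall where
  A : ℤ
  B : ℤ
  D : ℤ
  C : ℤ
deriving DecidableEq

/-- `A |z|² + B x + D y + C` -/
noncomputable def Wall.fn (w : Wall) (z : ℂ) : ℝ :=
  w.A * (z.re ^ 2 + z.im ^ 2) + w.B * z.re + w.D * z.im + w.C

theorem Wall.continuous_fn (w : Wall) : Continuous w.fn := by
  unfold Wall.fn
  fun_prop

theorem Wall.contDiff_fn (w : Wall) {n : WithTop ℕ∞} : ContDiff ℝ n w.fn := by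
  have h1 : ContDiff ℝ n (fun z : ℂ => z.re) := Complex.reCLM.contDiff
  have h2 : ContDiff ℝ n (fun z : ℂ => z.im) := Complex.imCLM.contDiff
  unfold Wall.fn
  exact (((contDiff_const.mul ((h1.pow 2).add (h2.pow 2))).add (contDiff_const.mul h1)).add
    (contDiff_const.mul h2)).add contDiff_const

/-! ### pull back under a Moebius map -/

/-- numerator at a complex parameter -/
noncomputable def numC (p : Piece) (τ : ℂ) : ℂ :=
  ((p.ax : ℂ) + (p.ay : ℂ) * Complex.I) + ((p.ax' : ℂ) + (p.ay' : ℂ) * Complex.I) * τ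

/-- denominator at a complex parameter -/
noncomputable def denC (p : Piece) (τ : ℂ) : ℂ :=
  ((p.bx : ℂ) + (p.By : ℂ) * Complex.I) + ((p.bx' : ℂ) + (p.by' : ℂ) * Complex.I) * τ

/-- the form of a wall on `ℂ²`, `A |X|² + B Re (X conj Y) + D Im (X conj Y) + C |Y|²` -/
noncomputable def Wall.form (w : Wall) (X Y : ℂ) : ℝ :=
  w.A * (X.re ^ 2 + X.im ^ 2) + w.B * (X.re * Y.re + X.im * Y.im) +
    w.D * (X.im * Y.re - X.re * Y.im) + w.C * (Y.re ^ 2 + Y.im ^ 2)

theorem Wall.form_div (w : Wall) {X Y : ℂ} (h : Y ≠ 0) :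
    w.form X Y = w.fn (X / Y) * (Y.re ^ 2 + Y.im ^ 2) := by
  have hn : Y.re ^ 2 + Y.im ^ 2 ≠ 0 := by
    intro h0
    apply h
    apply Complex.ext
    · simp only [Complex.zero_re]; nlinarith [sq_nonneg Y.re, sq_nonneg Y.im]
    · simp only [Complex.zero_im]; nlinarith [sq_nonneg Y.re, sq_nonneg Y.im]
  have hN : Complex.normSq Y = Y.re ^ 2 + Y.im ^ 2 := by rw [Complex.normSq_apply]; ring
  unfold Wall.form Wall.fn
  rw [Complex.div_re, Complex.div_im, hN]
  field_simp
  ring

/-- the pulled back wall -/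
def Wall.pull (w : Wall) (p : Piece) : Wall where
  A := w.A * (p.ax' ^ 2 + p.ay' ^ 2) + w.B * (p.ax' * p.bx' + p.ay' * p.by') +
    w.D * (p.ay' * p.bx' - p.ax' * p.by') + w.C * (p.bx' ^ 2 + p.by' ^ 2)
  B := 2 * w.A * (p.ax * p.ax' + p.ay * p.ay') +
    w.B * (p.ax' * p.bx + p.ay' * p.By + p.ax * p.bx' + p.ay * p.by') +
    w.D * (p.ay' * p.bx - p.ax' * p.By + p.ay * p.bx' - p.ax * p.by') +
    2 * w.C * (p.bx * p.bx' + p.By * p.by')
  D := -(2 * w.A * (p.ax * p.ay' - p.ay * p.ax')) +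
    w.B * (-(p.ay' * p.bx - p.ax' * p.By) + (p.ay * p.bx' - p.ax * p.by')) +
    w.D * (p.ax' * p.bx + p.ay' * p.By - (p.ax * p.bx' + p.ay * p.by')) -
    2 * w.C * (p.bx * p.by' - p.By * p.bx')
  C := w.A * (p.ax ^ 2 + p.ay ^ 2) + w.B * (p.ax * p.bx + p.ay * p.By) +
    w.D * (p.ay * p.bx - p.ax * p.By) + w.C * (p.bx ^ 2 + p.By ^ 2)

/-- homogeneous numerator -/
noncomputable def numH (p : Piece) (x y : ℂ) : ℂ :=
  ((p.ax : ℂ) + (p.ay : ℂ) * Complex.I) * y + ((p.ax' : ℂ) + (p.ay' : ℂ) * Complex.I) * x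

/-- homogeneous denominator -/
noncomputable def denH (p : Piece) (x y : ℂ) : ℂ :=
  ((p.bx : ℂ) + (p.By : ℂ) * Complex.I) * y + ((p.bx' : ℂ) + (p.by' : ℂ) * Complex.I) * x

theorem Wall.form_pull (w : Wall) (p : Piece) (x y : ℂ) :
    w.form (numH p x y) (denH p x y) = (w.pull p).form x y := by
  unfold Wall.form Wall.pull numH denH
  simp only [Complex.add_re, Complex.add_im, Complex.mul_re, Complex.mul_im, Complex.intCast_re,
    Complex.intCast_im, Complex.I_re, Complex.I_im]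
  push_cast
  ring

/-- the real quadratic of a wall along a piece -/
def Wall.quad (w : Wall) (p : Piece) : Quad := ⟨(w.pull p).A, (w.pull p).B, (w.pull p).C⟩

theorem num_eq (p : Piece) (t : ℝ) : p.num t = numH p t 1 := by
  unfold Piece.num numH; ring

theorem den_eq (p : Piece) (t : ℝ) : p.den t = denH p t 1 := by
  unfold Piece.den denH; ring

theorem Wall.quad_ev (w : Wall) (p : Piece) {t : ℝ} (h : p.den t ≠ 0) :
    (w.quad p).ev t = w.fn (p.z t) * ((p.den t).re ^ 2 + (p.den t).im ^ 2) := by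
  have h1 := w.form_pull p t 1
  rw [← num_eq, ← den_eq, w.form_div h] at h1
  unfold Piece.z
  rw [h1]
  unfold Quad.ev Wall.quad Wall.form
  simp only [Complex.ofReal_re, Complex.ofReal_im, Complex.one_re, Complex.one_im]
  ring

theorem normSq_pos' {Y : ℂ} (h : Y ≠ 0) : 0 < Y.re ^ 2 + Y.im ^ 2 := by
  have := Complex.normSq_pos.2 h
  rw [Complex.normSq_apply] at this
  nlinarith

/-! ### strict signs on an interval -/

/-- `0 < Q` on `[t0, t1]` -/
def sposOn (Q : Quad) (t0 t1 : ℤ) : Bool :=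
  decide (0 < Q.evZ t0 ∧ 0 < Q.evZ t1 ∧
    (Q.A ≤ 0 ∨ 0 ≤ 2 * Q.A * t0 + Q.B ∨ 2 * Q.A * t1 + Q.B ≤ 0 ∨ Q.B ^ 2 < 4 * Q.A * Q.C))

/-- `Q < 0` on `[t0, t1]` -/
def snegOn (Q : Quad) (t0 t1 : ℤ) : Bool := sposOn ⟨-Q.A, -Q.B, -Q.C⟩ t0 t1

theorem concave_pos {A B C u v t : ℝ} (hA : A ≤ 0) (a : 0 < A * u ^ 2 + B * u + C)
    (b : 0 < A * v ^ 2 + B * v + C) (h0 : u ≤ t) (h1 : t ≤ v) : 0 < A * t ^ 2 + B * t + C := by
  rcases eq_or_lt_of_le (h0.trans h1) with h | h
  · have e0 : t = u := le_antisymm (h ▸ h1) h0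
    rw [e0]; exact a
  · have hd : (0 : ℝ) < v - u := by linarith
    have key : (v - u) * (A * t ^ 2 + B * t + C) =
        (v - t) * (A * u ^ 2 + B * u + C) + (t - u) * (A * v ^ 2 + B * v + C) +
        (-A) * ((v - t) * (t - u) * (v - u)) := by ring
    have k1 : 0 ≤ (v - t) * (t - u) * (v - u) :=
      mul_nonneg (mul_nonneg (by linarith) (by linarith)) hd.le
    have k2 : 0 ≤ (-A) * ((v - t) * (t - u) * (v - u)) := mul_nonneg (by linarith) k1
    have k3 : 0 < (v - t) * (A * u ^ 2 + B * u + C) + (t - u) * (A * v ^ 2 + B * v + C) := by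
      rcases eq_or_lt_of_le h1 with h2 | h2
      · rw [h2]
        simp only [sub_self, zero_mul, zero_add]
        exact mul_pos hd b
      · exact add_pos_of_pos_of_nonneg (mul_pos (by linarith) a) (mul_nonneg (by linarith) b.le)
    have k4 : 0 < (v - u) * (A * t ^ 2 + B * t + C) := by rw [key]; linarith
    exact (mul_pos_iff_of_pos_left hd).1 k4

theorem sposOn_sound {Q : Quad} {t0 t1 : ℤ} (h : sposOn Q t0 t1 = true) {t : ℝ}
    (h0 : (t0 : ℝ) ≤ t) (h1 : t ≤ t1) : 0 < Q.ev t := by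
  unfold sposOn at h
  rw [decide_eq_true_iff] at h
  obtain ⟨a, b, c⟩ := h
  unfold Quad.evZ at a b
  have a' : (0 : ℝ) < Q.A * (t0 : ℝ) ^ 2 + Q.B * t0 + Q.C := by exact_mod_cast a
  have b' : (0 : ℝ) < Q.A * (t1 : ℝ) ^ 2 + Q.B * t1 + Q.C := by exact_mod_cast b
  unfold Quad.ev
  by_cases hA : (Q.A : ℝ) ≤ 0
  · exact concave_pos hA a' b' h0 h1
  rw [not_le] at hA
  rcases c with c | c | c | c
  · exact absurd (by exact_mod_cast c : (Q.A : ℝ) ≤ 0) (not_le.2 hA)
  · have c' : (0 : ℝ) ≤ 2 * Q.A * t0 + Q.B := by exact_mod_cast c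
    have key : Q.A * t ^ 2 + Q.B * t + Q.C = (Q.A * (t0 : ℝ) ^ 2 + Q.B * t0 + Q.C) +
        (t - t0) * (2 * Q.A * t0 + Q.B) + Q.A * (t - t0) ^ 2 := by ring
    rw [key]
    have k1 : 0 ≤ (t - t0) * (2 * Q.A * t0 + Q.B) := mul_nonneg (by linarith) c'
    have k2 : 0 ≤ Q.A * (t - t0) ^ 2 := by positivity
    linarith
  · have c' : 2 * (Q.A : ℝ) * t1 + Q.B ≤ 0 := by exact_mod_cast c
    have key : Q.A * t ^ 2 + Q.B * t + Q.C = (Q.A * (t1 : ℝ) ^ 2 + Q.B * t1 + Q.C) +
        (t1 - t) * (-(2 * Q.A * t1 + Q.B)) + Q.A * (t1 - t) ^ 2 := by ring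
    rw [key]
    have k1 : 0 ≤ (t1 - t) * (-(2 * Q.A * t1 + Q.B)) := mul_nonneg (by linarith) (by linarith)
    have k2 : 0 ≤ Q.A * (t1 - t) ^ 2 := by positivity
    linarith
  · have c' : (Q.B : ℝ) ^ 2 < 4 * Q.A * Q.C := by exact_mod_cast c
    have key : 4 * (Q.A : ℝ) * (Q.A * t ^ 2 + Q.B * t + Q.C) =
        (2 * Q.A * t + Q.B) ^ 2 + (4 * Q.A * Q.C - Q.B ^ 2) := by ring
    have k1 : 0 < 4 * (Q.A : ℝ) * (Q.A * t ^ 2 + Q.B * t + Q.C) := by
      rw [key]; nlinarith [sq_nonneg (2 * (Q.A : ℝ) * t + Q.B)]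
    exact (mul_pos_iff_of_pos_left (by linarith)).1 k1

theorem snegOn_sound {Q : Quad} {t0 t1 : ℤ} (h : snegOn Q t0 t1 = true) {t : ℝ}
    (h0 : (t0 : ℝ) ≤ t) (h1 : t ≤ t1) : Q.ev t < 0 := by
  have := sposOn_sound h h0 h1
  unfold Quad.ev at this ⊢
  push_cast at this
  linarith

/-! ### pieces with their parameter interval -/

/-- a piece and its parameter interval -/
structure Pc where
  p : Piece
  t0 : ℤ
  t1 : ℤ

/-- `z` lies on the piece -/
def Pc.On (P : Pc) (z : ℂ) : Prop :=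
  ∃ t : ℝ, (P.t0 : ℝ) ≤ t ∧ t ≤ P.t1 ∧ P.p.den t ≠ 0 ∧ z = P.p.z t

/-- the wall is positive on the piece -/
def Pc.pos (P : Pc) (w : Wall) : Bool := sposOn (w.quad P.p) P.t0 P.t1

/-- the wall is negative on the piece -/
def Pc.neg (P : Pc) (w : Wall) : Bool := snegOn (w.quad P.p) P.t0 P.t1

theorem Pc.pos_sound {P : Pc} {w : Wall} (h : P.pos w = true) {z : ℂ} (hz : P.On z) :
    0 < w.fn z := by
  obtain ⟨t, h0, h1, hd, rfl⟩ := hz
  have h2 := sposOn_sound h h0 h1
  rw [w.quad_ev P.p hd] at h2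
  exact (mul_pos_iff_of_pos_right (normSq_pos' hd)).1 h2

theorem Pc.neg_sound {P : Pc} {w : Wall} (h : P.neg w = true) {z : ℂ} (hz : P.On z) :
    w.fn z < 0 := by
  obtain ⟨t, h0, h1, hd, rfl⟩ := hz
  have h2 := snegOn_sound h h0 h1
  rw [w.quad_ev P.p hd] at h2
  by_contra hc
  rw [not_lt] at hc
  have := mul_nonneg hc (normSq_pos' hd).le
  linarith

/-! ### chains of rational points -/

/-- a rational point `(x : y)` of the projective line -/
structure Pt where
  x : ℤ
  y : ℤ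
deriving DecidableEq

/-- positive iff `Q` is after `P` -/
def cr (P Q : Pt) : ℤ := P.y * Q.x - P.x * Q.y

/-- the piece of the chart `M` from `P` to `Q`, parameter in `[t0, t1]` -/
def mkPc (M : Piece) (P Q : Pt) (t0 t1 : ℤ) : Pc where
  p :=
    { ax := M.ax * (t1 * P.y - t0 * Q.y) + M.ax' * (t1 * P.x - t0 * Q.x)
      ay := M.ay * (t1 * P.y - t0 * Q.y) + M.ay' * (t1 * P.x - t0 * Q.x)
      ax' := M.ax * (Q.y - P.y) + M.ax' * (Q.x - P.x)
      ay' := M.ay * (Q.y - P.y) + M.ay' * (Q.x - P.x)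
      bx := M.bx * (t1 * P.y - t0 * Q.y) + M.bx' * (t1 * P.x - t0 * Q.x)
      By := M.By * (t1 * P.y - t0 * Q.y) + M.by' * (t1 * P.x - t0 * Q.x)
      bx' := M.bx * (Q.y - P.y) + M.bx' * (Q.x - P.x)
      by' := M.By * (Q.y - P.y) + M.by' * (Q.x - P.x) }
  t0 := t0
  t1 := t1

theorem mkPc_num (M : Piece) (P Q : Pt) (t0 t1 : ℤ) (t : ℝ) :
    (mkPc M P Q t0 t1).p.num t = numH M ((t1 - t) * P.x + (t - t0) * Q.x)
      ((t1 - t) * P.y + (t - t0) * Q.y) := by
  unfold Piece.num mkPc numH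
  push_cast
  ring

theorem mkPc_den (M : Piece) (P Q : Pt) (t0 t1 : ℤ) (t : ℝ) :
    (mkPc M P Q t0 t1).p.den t = denH M ((t1 - t) * P.x + (t - t0) * Q.x)
      ((t1 - t) * P.y + (t - t0) * Q.y) := by
  unfold Piece.den mkPc denH
  push_cast
  ring

/-- a step of a chain: the end point and the parameter interval -/
structure St where
  Q : Pt
  t0 : ℤ
  t1 : ℤ

/-- the pieces of a chain -/
def pcsOf (M : Piece) : Pt → List St → List Pc
  | _, [] => []
  | P, s :: l => mkPc M P s.Q s.t0 s.t1 :: pcsOf M s.Q l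

/-- the chain is correctly oriented and ends at `E` -/
def chOk : Pt → List St → Pt → Bool
  | P, [], E => decide (P = E)
  | P, s :: l, E => decide (0 < cr P s.Q ∧ s.t0 < s.t1) && chOk s.Q l E

/-- a wall with its chart and its chain -/
structure WCh where
  w : Wall
  M : Piece
  P : Pt
  l : List St

/-- the pieces of a wall -/
def WCh.pcs (c : WCh) : List Pc := pcsOf c.M c.P c.l

/-- determinant of a chart -/
def dtx (M : Piece) : ℤ := M.ax' * M.bx - M.ay' * M.By - (M.ax * M.bx' - M.ay * M.by')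
def dty (M : Piece) : ℤ := M.ax' * M.By + M.ay' * M.bx - (M.ax * M.by' + M.ay * M.bx')

/-- the chart parametrizes the wall and the chain goes once around -/
def WCh.ok (c : WCh) : Bool :=
  decide ((c.w.pull c.M).A = 0 ∧ (c.w.pull c.M).B = 0 ∧ (c.w.pull c.M).C = 0 ∧
    (c.w.pull c.M).D ≠ 0 ∧ (dtx c.M ≠ 0 ∨ dty c.M ≠ 0) ∧ (c.P.x ≠ 0 ∨ c.P.y ≠ 0)) &&
    chOk c.P c.l ⟨-c.P.x, -c.P.y⟩

/-- every real direction after `P` and before `E` lies in one of the cones -/
theorem chain_cone {P E : Pt} {l : List St} (h : chOk P l E = true) {x y : ℝ}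
    (h1 : 0 ≤ P.y * x - P.x * y) (h2 : 0 ≤ y * E.x - x * E.y) (h3 : ¬ P = E) (M : Piece) :
    ∃ (A B : Pt) (t0 t1 : ℤ), mkPc M A B t0 t1 ∈ pcsOf M P l ∧ t0 < t1 ∧ 0 < cr A B ∧
      0 ≤ A.y * x - A.x * y ∧ 0 ≤ y * B.x - x * B.y := by
  induction l generalizing P with
  | nil =>
    simp only [chOk, decide_eq_true_eq] at h
    exact absurd h h3
  | cons s l ih =>
    simp only [chOk, Bool.and_eq_true, decide_eq_true_eq] at h
    obtain ⟨⟨h4, h5⟩, h6⟩ := h
    by_cases hc : 0 ≤ y * s.Q.x - x * s.Q.y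
    · exact ⟨P, s.Q, s.t0, s.t1, List.mem_cons_self, h5, h4, h1, hc⟩
    · rw [not_le] at hc
      by_cases h7 : s.Q = E
      · rw [h7] at hc
        exact absurd h2 (not_le.2 hc)
      · obtain ⟨A, B, t0, t1, h8, h9⟩ := ih h6 (by linarith) h7
        exact ⟨A, B, t0, t1, List.mem_cons_of_mem _ h8, h9⟩

/-- the chain of a wall covers the wall -/
theorem WCh.cover {c : WCh} (h : c.ok = true) {z : ℂ} (hz : c.w.fn z = 0) :
    ∃ P ∈ c.pcs, P.On z := by
  obtain ⟨w, M, P, l⟩ := c
  simp only [WCh.ok, Bool.and_eq_true, decide_eq_true_eq] at h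
  obtain ⟨⟨hA, hB, hC, hD, hdet, hP0⟩, hch⟩ := h
  simp only at hz
  set Δ : ℂ := (dtx M : ℂ) + (dty M : ℂ) * Complex.I with hΔ
  have hΔ0 : Δ ≠ 0 := by
    intro h0
    have h1 : (dtx M : ℝ) = 0 := by
      have := congrArg Complex.re h0
      simpa [hΔ] using this
    have h2 : (dty M : ℝ) = 0 := by
      have := congrArg Complex.im h0
      simpa [hΔ] using this
    rcases hdet with h | h
    · exact h (by exact_mod_cast h1)
    · exact h (by exact_mod_cast h2)
  -- the complex vector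
  set X : ℂ := ((M.bx : ℂ) + (M.By : ℂ) * Complex.I) * z - ((M.ax : ℂ) + (M.ay : ℂ) * Complex.I)
    with hX
  set Y : ℂ := ((M.ax' : ℂ) + (M.ay' : ℂ) * Complex.I) -
    ((M.bx' : ℂ) + (M.by' : ℂ) * Complex.I) * z with hY
  have hI : Complex.I ^ 2 = -1 := Complex.I_sq
  have hden : denH M X Y = Δ := by
    rw [hX, hY, hΔ]
    unfold denH dtx dty
    push_cast
    linear_combination (-((M.ay : ℂ) * M.by') + M.ay' * M.By) * hI
  have hnum : numH M X Y = Δ * z := by
    rw [hX, hY, hΔ]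
    unfold numH dtx dty
    push_cast
    linear_combination (-((M.ay : ℂ) * M.by') * z + M.ay' * M.By * z) * hI
  have hform : w.form (numH M X Y) (denH M X Y) = 0 := by
    rw [w.form_div (by rw [hden]; exact hΔ0), hnum, hden, mul_div_cancel_left₀ _ hΔ0, hz, zero_mul]
  rw [w.form_pull] at hform
  have him : X.im * Y.re - X.re * Y.im = 0 := by
    unfold Wall.form at hform
    rw [hA, hB, hC] at hform
    simp only [Int.cast_zero, zero_mul, zero_add, add_zero] at hform
    rcases mul_eq_zero.1 hform with h | h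
    · exact absurd (by exact_mod_cast h) hD
    · exact h
  -- a real vector
  obtain ⟨lam, x, y, hlam, hXx, hYy⟩ : ∃ (lam : ℂ) (x y : ℝ), lam ≠ 0 ∧ X = lam * x ∧
      Y = lam * y := by
    by_cases hY0 : Y = 0
    · refine ⟨X, 1, 0, ?_, by simp, by simp [hY0]⟩
      intro hX0
      apply hΔ0
      rw [← hden, hX0, hY0]
      simp [denH]
    · refine ⟨Y, (X / Y).re, 1, hY0, ?_, by simp⟩
      have h1 : (X / Y).im = 0 := by
        rw [Complex.div_im]
        have : X.im * Y.re / Complex.normSq Y - X.re * Y.im / Complex.normSq Y =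
          (X.im * Y.re - X.re * Y.im) / Complex.normSq Y := by ring
        rw [this, him, zero_div]
      have h2 : (((X / Y).re : ℝ) : ℂ) = X / Y := Complex.ext rfl (by simp [h1])
      rw [h2, mul_div_cancel₀ _ hY0]
  -- sign
  obtain ⟨x, y, h1, h2, hd, hn⟩ : ∃ x y : ℝ, 0 ≤ P.y * x - P.x * y ∧
      0 ≤ y * (-P.x : ℤ) - x * (-P.y : ℤ) ∧ denH M x y ≠ 0 ∧ numH M x y = denH M x y * z := by
    have e1 : denH M X Y = lam * denH M x y := by
      rw [hXx, hYy]; unfold denH; ring
    have e2 : numH M X Y = lam * numH M x y := by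
      rw [hXx, hYy]; unfold numH; ring
    have hd : denH M x y ≠ 0 := by
      intro h0
      rw [h0, mul_zero, hden] at e1
      exact hΔ0 e1
    have hn : numH M x y = denH M x y * z := by
      have h3 : lam * numH M x y = lam * (denH M x y * z) := by
        rw [← e2, hnum, ← hden, e1]; ring
      exact mul_left_cancel₀ hlam h3
    rcases le_total 0 (P.y * x - P.x * y) with h | h
    · exact ⟨x, y, h, by push_cast; linarith, hd, hn⟩
    · refine ⟨-x, -y, by linarith, by push_cast; linarith, ?_, ?_⟩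
      · have : denH M ((-x : ℝ) : ℂ) ((-y : ℝ) : ℂ) = -denH M x y := by
          unfold denH; push_cast; ring
        rw [this]; exact neg_ne_zero.2 hd
      · have e3 : denH M ((-x : ℝ) : ℂ) ((-y : ℝ) : ℂ) = -denH M x y := by
          unfold denH; push_cast; ring
        have e4 : numH M ((-x : ℝ) : ℂ) ((-y : ℝ) : ℂ) = -numH M x y := by
          unfold numH; push_cast; ring
        rw [e3, e4, hn]; ring
  have hPE : ¬ P = ⟨-P.x, -P.y⟩ := by
    intro hPE
    have hx : P.x = 0 := by have := congrArg Pt.x hPE; simp only at this; omega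
    have hy : P.y = 0 := by have := congrArg Pt.y hPE; simp only at this; omega
    rcases hP0 with h | h
    · exact h hx
    · exact h hy
  obtain ⟨A, B, t0, t1, hmem, ht, hcr, hAx, hBx⟩ := chain_cone hch h1 h2 hPE M
  refine ⟨_, hmem, ?_⟩
  have hcr' : (0 : ℝ) < A.y * B.x - A.x * B.y := by
    unfold cr at hcr
    exact_mod_cast hcr
  have ht' : (t0 : ℝ) < t1 := by exact_mod_cast ht
  set α : ℝ := y * B.x - x * B.y with hα
  set β : ℝ := A.y * x - A.x * y with hβ
  have hαβ : 0 < α + β := by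
    rcases (add_nonneg hBx hAx).lt_or_eq with h | h
    · exact h
    · exfalso
      have a0 : α = 0 := by linarith
      have b0 : β = 0 := by linarith
      have hx : x = 0 := by
        have : (A.y * B.x - A.x * B.y) * x = A.x * (y * B.x - x * B.y) + B.x * (A.y * x - A.x * y) := by
          ring
        rw [← hα, ← hβ, a0, b0] at this
        simp only [mul_zero, add_zero] at this
        exact (mul_eq_zero.1 this).resolve_left hcr'.ne'
      have hy : y = 0 := by
        have : (A.y * B.x - A.x * B.y) * y = A.y * (y * B.x - x * B.y) + B.y * (A.y * x - A.x * y) := by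
          ring
        rw [← hα, ← hβ, a0, b0] at this
        simp only [mul_zero, add_zero] at this
        exact (mul_eq_zero.1 this).resolve_left hcr'.ne'
      apply hd
      rw [hx, hy]
      simp [denH]
  set t : ℝ := t0 + (t1 - t0) * β / (α + β) with htd
  have hdt : (0 : ℝ) < t1 - t0 := by linarith
  have q1 : 0 ≤ (t1 - t0) * β / (α + β) := div_nonneg (mul_nonneg hdt.le hAx) hαβ.le
  have q2 : (t1 - t0) * β / (α + β) ≤ t1 - t0 := by
    rw [div_le_iff₀ hαβ]
    nlinarith
  -- the point of the cone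
  have k1 : (t1 - t) * A.x + (t - t0) * B.x =
      ((t1 - t0) * (A.y * B.x - A.x * B.y) / (α + β)) * x := by
    have : (A.y * B.x - A.x * B.y) * x = A.x * α + B.x * β := by rw [hα, hβ]; ring
    rw [htd]
    field_simp
    linear_combination (-((t1 : ℝ) - t0)) * this
  have k2 : (t1 - t) * A.y + (t - t0) * B.y =
      ((t1 - t0) * (A.y * B.x - A.x * B.y) / (α + β)) * y := by
    have : (A.y * B.x - A.x * B.y) * y = A.y * α + B.y * β := by rw [hα, hβ]; ring
    rw [htd]
    field_simp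
    linear_combination (-((t1 : ℝ) - t0)) * this
  set k : ℝ := (t1 - t0) * (A.y * B.x - A.x * B.y) / (α + β) with hk
  have hk0 : k ≠ 0 := (div_pos (mul_pos hdt hcr') hαβ).ne'
  have e1 : (mkPc M A B t0 t1).p.den t = k * denH M x y := by
    rw [mkPc_den]
    have h3 : ((t1 - t) * A.x + (t - t0) * B.x : ℂ) = ((k * x : ℝ) : ℂ) := by
      rw [← k1]; push_cast; ring
    have h4 : ((t1 - t) * A.y + (t - t0) * B.y : ℂ) = ((k * y : ℝ) : ℂ) := by
      rw [← k2]; push_cast; ring
    rw [h3, h4]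
    unfold denH
    push_cast
    ring
  have e2 : (mkPc M A B t0 t1).p.num t = k * numH M x y := by
    rw [mkPc_num]
    have h3 : ((t1 - t) * A.x + (t - t0) * B.x : ℂ) = ((k * x : ℝ) : ℂ) := by
      rw [← k1]; push_cast; ring
    have h4 : ((t1 - t) * A.y + (t - t0) * B.y : ℂ) = ((k * y : ℝ) : ℂ) := by
      rw [← k2]; push_cast; ring
    rw [h3, h4]
    unfold numH
    push_cast
    ring
  have hk0' : (k : ℂ) ≠ 0 := by exact_mod_cast hk0
  refine ⟨t, ?_, ?_, ?_, ?_⟩
  · change (t0 : ℝ) ≤ t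
    rw [htd]; linarith
  · change t ≤ (t1 : ℝ)
    rw [htd]; linarith
  · rw [e1]; exact mul_ne_zero hk0' hd
  · unfold Piece.z
    rw [e1, e2, hn]
    field_simp

/-! ### decision trees -/

variable {κ ι : Type}

/-- the cells which the piece may meet -/
def reach (W : κ → Wall) (P : Pc) : WTree κ ι → List ι
  | .leaf i => [i]
  | .node j l r => (if P.neg (W j) then [] else reach W P r) ++
      (if P.pos (W j) then [] else reach W P l)

theorem mem_reach [DecidableEq ι] {W : κ → Wall} {P : Pc} {z : ℂ} (hz : P.On z) {T : WTree κ ι}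
    {i : ι} (h : z ∈ T.reg (fun j => (W j).fn) 0 i) : i ∈ reach W P T := by
  induction T with
  | leaf i0 =>
    have : i = i0 := h
    simp [reach, this]
  | node j l r hl hr =>
    simp only [reach, List.mem_append]
    rcases h with ⟨h1, h2⟩ | ⟨h1, h2⟩
    · left
      have h3 : ¬ P.neg (W j) = true := by
        intro hc
        have := P.neg_sound hc hz
        simp only [neg_zero, Set.mem_ofPred_eq] at h1
        linarith
      rw [if_neg h3]
      exact hr h2
    · right
      have h3 : ¬ P.pos (W j) = true := by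
        intro hc
        have := P.pos_sound hc hz
        simp only [Set.mem_ofPred_eq] at h1
        linarith
      rw [if_neg h3]
      exact hl h2

/-- all (piece, cell, cell) which may meet; `ctx` = the pieces which may meet the current node -/
def pairs (W : κ → Wall) (pcs : κ → List Pc) : (Pc → Bool) → WTree κ ι → List (Pc × ι × ι)
  | _, .leaf _ => []
  | ctx, .node j l r =>
    (((pcs j).filter ctx).flatMap fun P => (reach W P l).flatMap fun a =>
      (reach W P r).map fun b => (P, a, b)) ++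
    (pairs W pcs (fun P => ctx P && !P.pos (W j)) l ++
      pairs W pcs (fun P => ctx P && !P.neg (W j)) r)

/-- the walls of a tree -/
def walls : WTree κ ι → List κ
  | .leaf _ => []
  | .node j l r => j :: (walls l ++ walls r)

/-- **a point of two different closed cells lies on a listed piece** -/
theorem exists_pair [DecidableEq ι] {W : κ → Wall} {pcs : κ → List Pc} {T : WTree κ ι}
    (hc : ∀ j ∈ walls T, ∀ z, (W j).fn z = 0 → ∃ P ∈ pcs j, P.On z) {ctx : Pc → Bool} {z : ℂ}
    (hctx : ∀ P : Pc, P.On z → ctx P = true) {i i' : ι} (hi : i ≠ i')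
    (h : z ∈ T.reg (fun j => (W j).fn) 0 i) (h' : z ∈ T.reg (fun j => (W j).fn) 0 i') :
    ∃ x ∈ pairs W pcs ctx T, x.1.On z ∧ ((x.2.1 = i ∧ x.2.2 = i') ∨ (x.2.1 = i' ∧ x.2.2 = i)) := by
  induction T generalizing ctx with
  | leaf i0 =>
    have h1 : i = i0 := h
    have h2 : i' = i0 := h'
    exact absurd (h1.trans h2.symm) hi
  | node j l r hl hr =>
    have hcl : ∀ j ∈ walls l, ∀ z, (W j).fn z = 0 → ∃ P ∈ pcs j, P.On z := fun j' hj' =>
      hc j' (by simp [walls, hj'])
    have hcr : ∀ j ∈ walls r, ∀ z, (W j).fn z = 0 → ∃ P ∈ pcs j, P.On z := fun j' hj' =>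
      hc j' (by simp [walls, hj'])
    have key : ∀ a b : ι, ((a = i ∧ b = i') ∨ (a = i' ∧ b = i)) →
        z ∈ l.reg (fun j => (W j).fn) 0 a → z ∈ r.reg (fun j => (W j).fn) 0 b →
        (W j).fn z = 0 → ∃ x ∈ pairs W pcs ctx (.node j l r), x.1.On z ∧
          ((x.2.1 = i ∧ x.2.2 = i') ∨ (x.2.1 = i' ∧ x.2.2 = i)) := by
      intro a b hab ha hb h0
      obtain ⟨P, hP, hOn⟩ := hc j (by simp [walls]) z h0
      refine ⟨(P, a, b), ?_, hOn, hab⟩
      simp only [pairs, List.mem_append]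
      left
      rw [List.mem_flatMap]
      refine ⟨P, List.mem_filter.2 ⟨hP, hctx P hOn⟩, ?_⟩
      rw [List.mem_flatMap]
      exact ⟨a, mem_reach hOn ha, List.mem_map.2 ⟨b, mem_reach hOn hb, rfl⟩⟩
    rcases h with ⟨h1, h2⟩ | ⟨h1, h2⟩ <;> rcases h' with ⟨h3, h4⟩ | ⟨h3, h4⟩ <;>
      simp only [neg_zero, Set.mem_ofPred_eq] at h1 h3
    · -- both right
      obtain ⟨x, hx, h5⟩ := hr hcr (ctx := fun P => ctx P && !P.neg (W j)) (fun P hP => by
        have h6 : P.neg (W j) = false := by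
          by_contra hc
          rw [Bool.not_eq_false] at hc
          have := P.neg_sound hc hP
          linarith
        simp [hctx P hP, h6]) h2 h4
      refine ⟨x, ?_, h5⟩
      simp only [pairs, List.mem_append]
      exact Or.inr (Or.inr hx)
    · exact key i' i (Or.inr ⟨rfl, rfl⟩) h4 h2 (le_antisymm h3 h1)
    · exact key i i' (Or.inl ⟨rfl, rfl⟩) h2 h4 (le_antisymm h1 h3)
    · obtain ⟨x, hx, h5⟩ := hl hcl (ctx := fun P => ctx P && !P.pos (W j)) (fun P hP => by
        have h6 : P.pos (W j) = false := by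
          by_contra hc
          rw [Bool.not_eq_false] at hc
          have := P.pos_sound hc hP
          linarith
        simp [hctx P hP, h6]) h2 h4
      refine ⟨x, ?_, h5⟩
      simp only [pairs, List.mem_append]
      exact Or.inr (Or.inl hx)

end Vale.Agent.P030.H250
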