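import Vale.Agent.P030.H250.Geo
import Vale.Agent.P030.H265.Flat
import Vale.Agent.P030.AR.NTop

/-!
# P030, route N: the three lists of inequalities of `AR.NTop` from finitely many wall pieces
(helper250)

`epairs` : for every node of a tree the pieces of its wall with the pairs of canonical cells on the
two sides (joint evaluation of both subtrees).  `edges_of_epairs` : helper991's `Edges`.
`Geo.cond` : condition (C) from a decidable check and the inequalities on the pieces.
-/

open Set
open Vale.Agent.P030.H580 Vale.Agent.P030.H532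

namespace Vale.Agent.P030.H250

/-! ### nonnegativity -/

/-- `0 ≤ Q` on `[t0, t1]` -/
def nposOn (Q : Quad) (t0 t1 : ℤ) : Bool :=
  decide (0 ≤ Q.evZ t0 ∧ 0 ≤ Q.evZ t1 ∧
    (Q.A ≤ 0 ∨ 0 ≤ 2 * Q.A * t0 + Q.B ∨ 2 * Q.A * t1 + Q.B ≤ 0 ∨ Q.B ^ 2 ≤ 4 * Q.A * Q.C))

theorem concave_nonneg {A B C u v t : ℝ} (hA : A ≤ 0) (a : 0 ≤ A * u ^ 2 + B * u + C)
    (b : 0 ≤ A * v ^ 2 + B * v + C) (h0 : u ≤ t) (h1 : t ≤ v) : 0 ≤ A * t ^ 2 + B * t + C := by
  rcases eq_or_lt_of_le (h0.trans h1) with h | h
  · have e0 : t = u := le_antisymm (h ▸ h1) h0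
    rw [e0]; exact a
  · have hd : (0 : ℝ) < v - u := by linarith
    have key : (v - u) * (A * t ^ 2 + B * t + C) =
        (v - t) * (A * u ^ 2 + B * u + C) + (t - u) * (A * v ^ 2 + B * v + C) +
        (-A) * ((v - t) * (t - u) * (v - u)) := by ring
    have k1 : 0 ≤ (v - t) * (t - u) * (v - u) :=
      mul_nonneg (mul_nonneg (by linarith) (by linarith)) hd.le
    have k2 : 0 ≤ (-A) * ((v - t) * (t - u) * (v - u)) := mul_nonneg (by linarith) k1
    have k3 : 0 ≤ (v - t) * (A * u ^ 2 + B * u + C) := mul_nonneg (by linarith) a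
    have k5 : 0 ≤ (t - u) * (A * v ^ 2 + B * v + C) := mul_nonneg (by linarith) b
    have k4 : 0 ≤ (v - u) * (A * t ^ 2 + B * t + C) := by rw [key]; linarith
    exact (mul_nonneg_iff_of_pos_left hd).1 k4

theorem nposOn_sound {Q : Quad} {t0 t1 : ℤ} (h : nposOn Q t0 t1 = true) {t : ℝ}
    (h0 : (t0 : ℝ) ≤ t) (h1 : t ≤ t1) : 0 ≤ Q.ev t := by
  unfold nposOn at h
  rw [decide_eq_true_iff] at h
  obtain ⟨a, b, c⟩ := h
  unfold Quad.evZ at a b
  have a' : (0 : ℝ) ≤ Q.A * (t0 : ℝ) ^ 2 + Q.B * t0 + Q.C := by exact_mod_cast a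
  have b' : (0 : ℝ) ≤ Q.A * (t1 : ℝ) ^ 2 + Q.B * t1 + Q.C := by exact_mod_cast b
  unfold Quad.ev
  by_cases hA : (Q.A : ℝ) ≤ 0
  · exact concave_nonneg hA a' b' h0 h1
  rw [not_le] at hA
  rcases c with c | c | c | c
  · exact absurd (by exact_mod_cast c : (Q.A : ℝ) ≤ 0) (not_le.2 hA)
  · have c' : (0 : ℝ) ≤ 2 * Q.A * t0 + Q.B := by exact_mod_cast c
    have key : Q.A * t ^ 2 + Q.B * t + Q.C = (Q.A * (t0 : ℝ) ^ 2 + Q.B * t0 + Q.C) +
        (t - t0) * (2 * Q.A * t0 + Q.B) + Q.A * (t - t0) ^ 2 := by ring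
    rw [key]
    have k1 : 0 ≤ (t - t0) * (2 * Q.A * t0 + Q.B) := mul_nonneg (by linarith) c'
    have k2 : 0 ≤ Q.A * (t - t0) ^ 2 := by positivity
    linarith
  · have c' : 2 * (Q.A : ℝ) * t1 + Q.B ≤ 0 := by exact_mod_cast c
    have key : Q.A * t ^ 2 + Q.B * t + Q.C = (Q.A * (t1 : ℝ) ^ 2 + Q.B * t1 + Q.C) +
        (t1 - t) * (-(2 * Q.A * t1 + Q.B)) + Q.A * (t1 - t) ^ 2 := by ring
    rw [key]
    have k1 : 0 ≤ (t1 - t) * (-(2 * Q.A * t1 + Q.B)) := mul_nonneg (by linarith) (by linarith)
    have k2 : 0 ≤ Q.A * (t1 - t) ^ 2 := by positivity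
    linarith
  · have c' : (Q.B : ℝ) ^ 2 ≤ 4 * Q.A * Q.C := by exact_mod_cast c
    have key : 4 * (Q.A : ℝ) * (Q.A * t ^ 2 + Q.B * t + Q.C) =
        (2 * Q.A * t + Q.B) ^ 2 + (4 * Q.A * Q.C - Q.B ^ 2) := by ring
    have k1 : 0 ≤ 4 * (Q.A : ℝ) * (Q.A * t ^ 2 + Q.B * t + Q.C) := by
      rw [key]; nlinarith [sq_nonneg (2 * (Q.A : ℝ) * t + Q.B)]
    exact (mul_nonneg_iff_of_pos_left (by linarith)).1 k1

/-- the wall is nonnegative on the piece -/
def Pc.nneg (P : Pc) (w : Wall) : Bool := nposOn (w.quad P.p) P.t0 P.t1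

theorem Pc.nneg_sound {P : Pc} {w : Wall} (h : P.nneg w = true) {z : ℂ} (hz : P.On z) :
    0 ≤ w.fn z := by
  obtain ⟨t, h0, h1, hd, rfl⟩ := hz
  have h2 := nposOn_sound h h0 h1
  rw [w.quad_ev P.p hd] at h2
  exact (mul_nonneg_iff_of_pos_right (normSq_pos' hd)).1 h2

/-! ### canonical cells -/

section tree
variable {κ ι : Type} [DecidableEq κ]

/-- the value of a wall in a list of assumptions -/
def look : List (κ × Bool) → κ → Option Bool
  | [], _ => none
  | (j, s) :: l, k => if j = k then some s else look l k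

/-- the canonical cells on a piece, with the assumptions made on the way -/
def crl (W : κ → Wall) (P : Pc) : WTree κ ι → List (κ × Bool) → List (ι × List (κ × Bool))
  | .leaf i, asm => [(i, asm)]
  | .node j l r, asm =>
    match look asm j with
    | some true => crl W P r asm
    | some false => crl W P l asm
    | none => (if P.neg (W j) then [] else crl W P r ((j, true) :: asm)) ++
        (if P.nneg (W j) then [] else crl W P l ((j, false) :: asm))

/-- the assumptions hold at `z` -/
def Holds (g : κ → ℂ → ℝ) (z : ℂ) (asm : List (κ × Bool)) : Prop :=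
  ∀ x ∈ asm, (x.2 = true ↔ 0 ≤ g x.1 z)

omit [DecidableEq κ] in
theorem holds_cons {g : κ → ℂ → ℝ} {z : ℂ} {asm : List (κ × Bool)} (h : Holds g z asm) {j : κ}
    {s : Bool} (hs : s = true ↔ 0 ≤ g j z) : Holds g z ((j, s) :: asm) := by
  intro x hx
  rcases List.mem_cons.1 hx with h1 | h1
  · rw [h1]; exact hs
  · exact h x h1

theorem look_holds {g : κ → ℂ → ℝ} {z : ℂ} {asm : List (κ × Bool)} (h : Holds g z asm) {j : κ}
    {s : Bool} (hs : look asm j = some s) : s = true ↔ 0 ≤ g j z := by
  induction asm with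
  | nil => simp [look] at hs
  | cons x l ih =>
    obtain ⟨k, s'⟩ := x
    simp only [look] at hs
    split_ifs at hs with hk
    · subst hk
      have e : s' = s := by simpa using hs
      subst e
      exact h _ List.mem_cons_self
    · exact ih (fun y hy => h y (List.mem_cons_of_mem _ hy)) hs

/-- same signs -/
def SameSign (g : κ → ℂ → ℝ) (W : κ → Wall) : Prop :=
  ∀ j z, (0 ≤ g j z ↔ 0 ≤ (W j).fn z) ∧ (g j z ≤ 0 ↔ (W j).fn z ≤ 0)

theorem mem_crl {g : κ → ℂ → ℝ} {W : κ → Wall} (hg : SameSign g W) {P : Pc} {z : ℂ}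
    (hz : P.On z) (T : WTree κ ι) : ∀ asm : List (κ × Bool), Holds g z asm →
      ∃ asm', (AR.can g T z, asm') ∈ crl W P T asm ∧ Holds g z asm' := by
  induction T with
  | leaf i => exact fun asm h => ⟨asm, by simp [crl, AR.can], h⟩
  | node j l r hl hr =>
    intro asm h
    by_cases h0 : 0 ≤ g j z
    · have e : AR.can g (.node j l r) z = AR.can g r z := if_pos h0
      rw [e]
      cases hlk : look asm j with
      | some s =>
        have hs := (look_holds h hlk).2 h0
        subst hs
        obtain ⟨asm', h1, h2⟩ := hr asm h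
        refine ⟨asm', ?_, h2⟩
        simp only [crl, hlk]
        exact h1
      | none =>
        obtain ⟨asm', h1, h2⟩ := hr ((j, true) :: asm) (holds_cons h (by simp [h0]))
        refine ⟨asm', ?_, h2⟩
        have h3 : ¬ P.neg (W j) = true := by
          intro hc
          have := P.neg_sound hc hz
          have := (hg j z).1.1 h0
          linarith
        simp only [crl, hlk, if_neg h3]
        exact List.mem_append_left _ h1
    · have e : AR.can g (.node j l r) z = AR.can g l z := if_neg h0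
      rw [e]
      cases hlk : look asm j with
      | some s =>
        have hs : s = false := by
          by_contra hc
          exact h0 ((look_holds h hlk).1 (by simpa using hc))
        subst hs
        obtain ⟨asm', h1, h2⟩ := hl asm h
        refine ⟨asm', ?_, h2⟩
        simp only [crl, hlk]
        exact h1
      | none =>
        obtain ⟨asm', h1, h2⟩ := hl ((j, false) :: asm) (holds_cons h (by simp [h0]))
        refine ⟨asm', ?_, h2⟩
        have h3 : ¬ P.nneg (W j) = true := by
          intro hc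
          exact h0 ((hg j z).1.2 (P.nneg_sound hc hz))
        simp only [crl, hlk, if_neg h3]
        exact List.mem_append_right _ h1

/-- a piece with the comparisons `W x.1 ≤ W x.2` proved on it -/
structure PP where
  P : Pc
  prs : List (ℕ × ℕ)

/-- the pieces of the walls with the pairs of canonical cells on both sides -/
def epairs (W : κ → Wall) (pcs : κ → List PP) : (Pc → Bool) → WTree κ ι → List (PP × ι × ι)
  | _, .leaf _ => []
  | ctx, .node j l r =>
    (((pcs j).filter fun p => ctx p.P).flatMap fun p =>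
      (crl W p.P l [(j, true)]).flatMap fun a =>
        (crl W p.P r a.2).map fun b => (p, a.1, b.1)) ++
    (epairs W pcs (fun P => ctx P && !P.pos (W j)) l ++
      epairs W pcs (fun P => ctx P && !P.neg (W j)) r)

theorem mem_epairs {W : κ → Wall} {pcs : κ → List PP} {T : WTree κ ι} : ∀ {ctx : Pc → Bool}
    {x : PP × ι × ι}, x ∈ epairs W pcs ctx T → ∃ j, x.1 ∈ pcs j := by
  induction T with
  | leaf i => intro ctx x hx; simp [epairs] at hx
  | node j l r ihl ihr =>
    intro ctx x hx
    simp only [epairs, List.mem_append] at hx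
    rcases hx with hx | hx | hx
    · rw [List.mem_flatMap] at hx
      obtain ⟨p, hp, hx⟩ := hx
      rw [List.mem_flatMap] at hx
      obtain ⟨a, _, hx⟩ := hx
      obtain ⟨b, _, hx⟩ := List.mem_map.1 hx
      rw [← hx]
      exact ⟨j, (List.mem_filter.1 hp).1⟩
    · exact ihl hx
    · exact ihr hx

/-- **helper991's edges from the listed pairs** -/
theorem edges_of_epairs {g : κ → ℂ → ℝ} {W : κ → Wall} (hg : SameSign g W) {pcs : κ → List PP}
    {E : ι → ι → ℂ → Prop} (T : WTree κ ι) : ∀ (ctx : Pc → Bool) (D : Set ℂ),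
      (∀ z ∈ D, ∀ P : Pc, P.On z → ctx P = true) →
      (∀ j ∈ walls T, ∀ z ∈ D, (W j).fn z = 0 → ∃ p ∈ pcs j, p.P.On z) →
      (∀ x ∈ epairs W pcs ctx T, ∀ z ∈ D, x.1.P.On z → E x.2.1 x.2.2 z) →
      AR.Edges g E D T := by
  induction T with
  | leaf i => intro _ _ _ _ _; trivial
  | node j l r ihl ihr =>
    intro ctx D hctx hc hE
    refine ⟨fun z hz h0 => ?_, ?_, ?_⟩
    · have h1 : (W j).fn z = 0 :=
        le_antisymm ((hg j z).2.1 h0.le) ((hg j z).1.1 h0.ge)
      obtain ⟨p, hp, hOn⟩ := hc j (by simp [walls]) z hz h1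
      obtain ⟨a', ha, hh⟩ := mem_crl hg hOn l [(j, true)] (by
        intro x hx
        rw [List.mem_singleton] at hx
        rw [hx]
        simp [h0.ge])
      obtain ⟨b', hb, _⟩ := mem_crl hg hOn r a' hh
      refine hE (p, AR.can g l z, AR.can g r z) ?_ z hz hOn
      simp only [epairs, List.mem_append]
      left
      rw [List.mem_flatMap]
      refine ⟨p, List.mem_filter.2 ⟨hp, hctx z hz p.P hOn⟩, ?_⟩
      rw [List.mem_flatMap]
      exact ⟨_, ha, List.mem_map.2 ⟨_, hb, rfl⟩⟩
    · refine ihl (fun P => ctx P && !P.pos (W j)) _ ?_ ?_ ?_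
      · rintro z ⟨hz, hz2⟩ P hP
        have h6 : P.pos (W j) = false := by
          by_contra hc
          rw [Bool.not_eq_false] at hc
          have h7 := P.pos_sound hc hP
          have h8 := (hg j z).2.1 hz2
          linarith
        simp [hctx z hz P hP, h6]
      · exact fun j' hj' z hz => hc j' (by simp [walls, hj']) z hz.1
      · intro x hx z hz
        refine hE x ?_ z hz.1
        simp only [epairs, List.mem_append]
        exact Or.inr (Or.inl hx)
    · refine ihr (fun P => ctx P && !P.neg (W j)) _ ?_ ?_ ?_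
      · rintro z ⟨hz, hz2⟩ P hP
        have h6 : P.neg (W j) = false := by
          by_contra hc
          rw [Bool.not_eq_false] at hc
          have h7 := P.neg_sound hc hP
          have h8 := (hg j z).1.1 hz2
          linarith
        simp [hctx z hz P hP, h6]
      · exact fun j' hj' z hz => hc j' (by simp [walls, hj']) z hz.1
      · intro x hx z hz
        refine hE x ?_ z hz.1
        simp only [epairs, List.mem_append]
        exact Or.inr (Or.inr hx)

end tree

end Vale.Agent.P030.H250
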