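import Vale.Agent.P030.H250.Geo2

/-!
# P030, route N: condition (C) from a decidable check and finitely many pieces (helper250)
-/

open Set
open Vale.Agent.P030.H580 Vale.Agent.P030.H532
open scoped ComplexConjugate

namespace Vale.Agent.P030.H250

/-! ### integer walls and helper580's walls -/

/-- admissible as a wall of helper580 -/
def Wall.okW (w : Wall) : Bool :=
  decide (w.A = 0 ∨ (0 < w.A ∧ 4 * w.A * w.C ≤ w.B ^ 2 + w.D ^ 2))

/-- the wall as a line or a circle -/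
noncomputable def Wall.toW (w : Wall) : H580.Wall :=
  if w.A = 0 then .line w.B w.D (-w.C) else
    .circ ⟨-(w.B : ℝ) / (2 * w.A), -(w.D : ℝ) / (2 * w.A)⟩
      (Real.sqrt ((w.B : ℝ) ^ 2 + (w.D : ℝ) ^ 2 - 4 * w.A * w.C) / (2 * w.A))

theorem Wall.toW_fn {w : Wall} (h : w.okW = true) :
    ∃ k : ℝ, 0 < k ∧ ∀ z, w.toW.fn z = k * w.fn z := by
  have h1 := of_decide_eq_true h
  unfold Wall.toW
  by_cases hA : w.A = 0
  · refine ⟨1, one_pos, fun z => ?_⟩
    rw [if_pos hA]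
    simp only [H580.Wall.fn, Wall.fn, hA]
    push_cast
    ring
  · obtain ⟨h2, h3⟩ := h1.resolve_left hA
    have hA' : (0 : ℝ) < w.A := by exact_mod_cast h2
    have h3' : 4 * (w.A : ℝ) * w.C ≤ (w.B : ℝ) ^ 2 + (w.D : ℝ) ^ 2 := by exact_mod_cast h3
    refine ⟨1 / w.A, by positivity, fun z => ?_⟩
    rw [if_neg hA]
    simp only [H580.Wall.fn, Wall.fn]
    rw [div_pow, Real.sq_sqrt (by linarith), Complex.normSq_apply]
    simp only [Complex.sub_re, Complex.sub_im]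
    field_simp
    ring

theorem sameSign_of_toW {κ : Type} {wi : κ → Wall} (h : ∀ j, (wi j).okW = true) :
    SameSign (fun j => ((wi j).toW).fn) wi := by
  intro j z
  obtain ⟨k, hk, h1⟩ := Wall.toW_fn (h j)
  simp only [h1]
  constructor
  · exact mul_nonneg_iff_of_pos_left hk
  · constructor
    · intro h2
      by_contra hc
      rw [not_le] at hc
      have := mul_pos hk hc
      linarith
    · intro h2
      exact mul_nonpos_of_nonneg_of_nonpos hk.le h2

/-! ### the cusp circles and the real line -/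

/-- the real line -/
def imW : Wall := ⟨0, 0, 1, 0⟩

theorem imW_fn (z : ℂ) : imW.fn z = z.im := by
  simp [imW, Wall.fn]

/-- the cusp circle `|z - cen c| = n / d` -/
def cwI (c : Fin 4) (n d : ℤ) : Wall :=
  match c with
  | 0 => ⟨d ^ 2, -(2 * d ^ 2), 0, d ^ 2 - n ^ 2⟩
  | 1 => ⟨4 * d ^ 2, -(4 * d ^ 2), 0, d ^ 2 - 4 * n ^ 2⟩
  | 2 => ⟨d ^ 2, 0, 0, -n ^ 2⟩
  | 3 => ⟨4 * d ^ 2, -(4 * d ^ 2), 0, d ^ 2 - 4 * n ^ 2⟩

theorem cwI_fn (c : Fin 4) (n : ℤ) {d : ℤ} (hd : 0 < d) :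
    ∃ k : ℝ, 0 < k ∧ ∀ z : ℂ, (cwI c n d).fn z = k * (‖z - AR.cen c‖ ^ 2 - ((n : ℝ) / d) ^ 2) := by
  have hd' : (0 : ℝ) < d := by exact_mod_cast hd
  have hs : ∀ w : ℂ, ‖w‖ ^ 2 = w.re * w.re + w.im * w.im := fun w => by
    rw [← Complex.normSq_eq_norm_sq, Complex.normSq_apply]
  have h2r : (1 / 2 : ℂ).re = 1 / 2 := by norm_num
  have h2i : (1 / 2 : ℂ).im = 0 := by norm_num
  fin_cases c
  · refine ⟨(d : ℝ) ^ 2, by positivity, fun z => ?_⟩
    rw [hs]
    simp only [cwI, Wall.fn, AR.cen, Matrix.cons_val_zero, Fin.zero_eta, Complex.sub_re, Complex.sub_im, Complex.one_re,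
      Complex.one_im]
    field_simp
    push_cast
    ring
  · refine ⟨4 * (d : ℝ) ^ 2, by positivity, fun z => ?_⟩
    rw [hs]
    have e : AR.cen ((fun i => i) ⟨1, by decide⟩ : Fin 4) = 1 / 2 := rfl
    rw [e]
    simp only [cwI, Wall.fn, Complex.sub_re, Complex.sub_im, h2r, h2i]
    field_simp
    push_cast
    ring
  · refine ⟨(d : ℝ) ^ 2, by positivity, fun z => ?_⟩
    rw [hs]
    have e : AR.cen ((fun i => i) ⟨2, by decide⟩ : Fin 4) = 0 := rfl
    rw [e]
    simp only [cwI, Wall.fn, Complex.sub_re, Complex.sub_im, Complex.zero_re, Complex.zero_im]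
    field_simp
    push_cast
    ring
  · refine ⟨4 * (d : ℝ) ^ 2, by positivity, fun z => ?_⟩
    rw [hs]
    have e : AR.cen ((fun i => i) ⟨3, by decide⟩ : Fin 4) = 1 / 2 := rfl
    rw [e]
    simp only [cwI, Wall.fn, Complex.sub_re, Complex.sub_im, h2r, h2i]
    field_simp
    push_cast
    ring

theorem cwI_nonneg {c : Fin 4} {n d : ℕ} (hd : 0 < d) {z : ℂ} {r : ℝ} (hr : r = n / d)
    (h : r ≤ ‖z - AR.cen c‖) : 0 ≤ (cwI c n d).fn z := by
  obtain ⟨k, hk, h1⟩ := cwI_fn c n (d := (d : ℤ)) (by exact_mod_cast hd)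
  rw [h1]
  refine mul_nonneg hk.le (sub_nonneg.2 ?_)
  have hr0 : 0 ≤ r := by rw [hr]; positivity
  have e : ((n : ℤ) : ℝ) / ((d : ℤ) : ℝ) = r := by rw [hr]; push_cast; ring
  rw [e]
  gcongr

theorem cwI_nonpos {c : Fin 4} {n d : ℕ} (hd : 0 < d) {z : ℂ} {r : ℝ} (hr : r = n / d)
    (h : ‖z - AR.cen c‖ ≤ r) : (cwI c n d).fn z ≤ 0 := by
  obtain ⟨k, hk, h1⟩ := cwI_fn c n (d := (d : ℤ)) (by exact_mod_cast hd)
  rw [h1]
  refine mul_nonpos_of_nonneg_of_nonpos hk.le (sub_nonpos.2 ?_)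
  have hr0 : 0 ≤ r := by rw [hr]; positivity
  have e : ((n : ℤ) : ℝ) / ((d : ℤ) : ℝ) = r := by rw [hr]; push_cast; ring
  rw [e]
  gcongr

/-! ### chains with comparisons -/

/-- the pieces of a chain with comparisons -/
def ppsOf (M : Piece) : Pt → List (St × List (ℕ × ℕ)) → List PP
  | _, [] => []
  | P, s :: l => ⟨mkPc M P s.1.Q s.1.t0 s.1.t1, s.2⟩ :: ppsOf M s.1.Q l

theorem mem_ppsOf {M : Piece} {P : Pt} {l : List (St × List (ℕ × ℕ))} {p : Pc}
    (h : p ∈ pcsOf M P (l.map Prod.fst)) : ∃ q ∈ ppsOf M P l, q.P = p := by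
  induction l generalizing P with
  | nil => simp [pcsOf] at h
  | cons s l ih =>
    simp only [List.map_cons, pcsOf, List.mem_cons] at h
    rcases h with h | h
    · exact ⟨_, List.mem_cons_self, h.symm⟩
    · obtain ⟨q, h1, h2⟩ := ih h
      exact ⟨q, List.mem_cons_of_mem _ h1, h2⟩

/-- a wall, its chart, its chain with comparisons -/
structure WChP where
  w : Wall
  M : Piece
  P : Pt
  l : List (St × List (ℕ × ℕ))

/-- the pieces -/
def WChP.pps (c : WChP) : List PP := ppsOf c.M c.P c.l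

/-- the check of the chain -/
def WChP.ok (c : WChP) : Bool := WCh.ok ⟨c.w, c.M, c.P, c.l.map Prod.fst⟩

theorem WChP.cover {c : WChP} (h : c.ok = true) {z : ℂ} (hz : c.w.fn z = 0) :
    ∃ p ∈ c.pps, p.P.On z := by
  obtain ⟨P, h1, h2⟩ := WCh.cover (c := ⟨c.w, c.M, c.P, c.l.map Prod.fst⟩) h hz
  obtain ⟨q, h3, h4⟩ := mem_ppsOf h1
  exact ⟨q, h3, by rw [h4]; exact h2⟩

/-! ### the data of the geometry -/

/-- all data of the geometry: upper tree, integer walls, radii, pieces of the upper walls, of the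
real line and of the cusp circles, patterns -/
structure Geom (N n m : ℕ) where
  TU : WTree (Fin n) (Fin N)
  wi : Fin n → Wall
  rn : Fin 4 → ℕ
  rd : Fin 4 → ℕ
  pu : Fin n → List PP
  pa : List PP
  pc : Fin 4 → List PP
  pI : Fin N → Fin N → Fin m → Fin m → Bool
  pR : Fin 4 → Fin N → Fin m → Fin m → Bool
  pC : Fin 4 → Fin N → Fin m → Fin m → Bool

namespace Geom
variable {N n m : ℕ} (G : Geom N n m)

/-- the piece may meet the closed upper half plane outside of the cusp discs -/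
def ctx (P : Pc) : Bool :=
  !(P.neg imW) && !(P.neg (cwI 0 (G.rn 0) (G.rd 0))) && !(P.neg (cwI 1 (G.rn 1) (G.rd 1))) &&
    !(P.neg (cwI 2 (G.rn 2) (G.rd 2))) && !(P.pos (cwI 3 (G.rn 3) (G.rd 3)))

/-- the piece may meet the strip over the interval `q` -/
def qok (P : Pc) (q : Fin 4) : Bool :=
  match q with
  | 0 => !(P.neg ⟨0, 1, 0, 0⟩) && !(P.pos ⟨0, 2, 0, -1⟩)
  | 1 => !(P.neg ⟨0, 2, 0, -1⟩) && !(P.pos ⟨0, 1, 0, -1⟩)
  | 2 => !(P.neg ⟨0, 1, 0, -1⟩)
  | 3 => !(P.pos ⟨0, 1, 0, 0⟩)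

/-- all needed comparisons are listed -/
def has (p : PP) (pat : Fin m → Fin m → Bool) : Bool :=
  (List.finRange m).all fun b => (List.finRange m).all fun c =>
    !(pat b c) || b == c || p.prs.contains (c.val, b.val)

/-- the check for the upper walls -/
def chkI : Bool :=
  (epairs G.wi G.pu G.ctx G.TU).all fun x =>
    has x.1 fun b c => G.pI x.2.1 x.2.2 b c || G.pI x.2.2 x.2.1 b c

/-- the check for the real line -/
def chkA : Bool :=
  G.pa.all fun p => !(G.ctx p.P) || ((crl G.wi p.P G.TU []).all fun a =>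
    (List.finRange 4).all fun q => !(qok p.P q) || has p (G.pR q a.1))

/-- the check for the cusp circles -/
def chkC : Bool :=
  (List.finRange 4).all fun c => (G.pc c).all fun p => p.P.neg imW ||
    ((crl G.wi p.P G.TU []).all fun a => has p (G.pC c a.1))

theorem qok_sound {P : Pc} {z : ℂ} (hz : P.On z) {q : Fin 4} (hq : z ∈ H265.Sq q) :
    qok P q = true := by
  have hre : (H265.yz z).re = 1 - 2 * z.re := by simp [H265.yz]
  have f1 : (⟨0, 1, 0, 0⟩ : Wall).fn z = z.re := by simp [Wall.fn]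
  have f2 : (⟨0, 2, 0, -1⟩ : Wall).fn z = 2 * z.re - 1 := by simp [Wall.fn]; ring
  have f3 : (⟨0, 1, 0, -1⟩ : Wall).fn z = z.re - 1 := by simp [Wall.fn]; ring
  have nn : ∀ {w : Wall}, 0 ≤ w.fn z → P.neg w = false := by
    intro w h
    by_contra hc
    rw [Bool.not_eq_false] at hc
    have := P.neg_sound hc hz
    linarith
  have np : ∀ {w : Wall}, w.fn z ≤ 0 → P.pos w = false := by
    intro w h
    by_contra hc
    rw [Bool.not_eq_false] at hc
    have := P.pos_sound hc hz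
    linarith
  have hm : (H265.yz z).re ∈ Jv q := hq
  rw [hre] at hm
  fin_cases q
  · obtain ⟨h1, h2⟩ : (0 : ℝ) < 1 - 2 * z.re ∧ 1 - 2 * z.re < 1 := hm
    have e1 := nn (w := ⟨0, 1, 0, 0⟩) (by rw [f1]; linarith)
    have e2 := np (w := ⟨0, 2, 0, -1⟩) (by rw [f2]; linarith)
    simp [qok, e1, e2]
  · obtain ⟨h1, h2⟩ : (-1 : ℝ) < 1 - 2 * z.re ∧ 1 - 2 * z.re < 0 := hm
    have e1 := nn (w := ⟨0, 2, 0, -1⟩) (by rw [f2]; linarith)
    have e2 := np (w := ⟨0, 1, 0, -1⟩) (by rw [f3]; linarith)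
    simp [qok, e1, e2]
  · have h1 : 1 - 2 * z.re < -1 := hm
    have e1 := nn (w := ⟨0, 1, 0, -1⟩) (by rw [f3]; linarith)
    simp [qok, e1]
  · have h1 : 1 < 1 - 2 * z.re := hm
    have e1 := np (w := ⟨0, 1, 0, 0⟩) (by rw [f1]; linarith)
    simp [qok, e1]

theorem has_sound {p : PP} {pat : Fin m → Fin m → Bool} (h : has p pat = true) {b c : Fin m}
    (hp : pat b c = true) (hbc : b ≠ c) : (c.val, b.val) ∈ p.prs := by
  unfold has at h
  rw [List.all_eq_true] at h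
  have h1 := h b (List.mem_finRange b)
  rw [List.all_eq_true] at h1
  have h2 := h1 c (List.mem_finRange c)
  simpa [hp, hbc] using h2

theorem ctx_sound {ρ : Fin 4 → ℝ} (hρ : ∀ c, ρ c = G.rn c / G.rd c) (hd : ∀ c, 0 < G.rd c)
    {z : ℂ} (him : 0 ≤ z.im) (hD : z ∈ AR.Dom ρ) {P : Pc} (hz : P.On z) : G.ctx P = true := by
  obtain ⟨d0, d1, d2, d3⟩ := hD
  have nn : ∀ {w : Wall}, 0 ≤ w.fn z → P.neg w = false := by
    intro w h
    by_contra hc
    rw [Bool.not_eq_false] at hc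
    have := P.neg_sound hc hz
    linarith
  have np : ∀ {w : Wall}, w.fn z ≤ 0 → P.pos w = false := by
    intro w h
    by_contra hc
    rw [Bool.not_eq_false] at hc
    have := P.pos_sound hc hz
    linarith
  have e0 := nn (w := imW) (by rw [imW_fn]; exact him)
  have e1 := nn (cwI_nonneg (c := 0) (hd 0) (hρ 0) (z := z) d0)
  have e2 := nn (cwI_nonneg (c := 1) (hd 1) (hρ 1) (z := z) d1)
  have e3 := nn (cwI_nonneg (c := 2) (hd 2) (hρ 2) (z := z) (by
    have : z - AR.cen 2 = z := by simp [AR.cen]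
    rw [this]; exact d2))
  have e4 := np (cwI_nonpos (c := 3) (hd 3) (hρ 3) (z := z) d3)
  simp [ctx, e0, e1, e2, e3, e4]

/-- **condition (C)** -/
theorem cond (D : AR.TopN N n m) (Q : D.Pat) (hT : D.TU = G.TU)
    (hw : SameSign (fun j => (D.w j).fn) G.wi) (hρ : ∀ c, D.ρ c = G.rn c / G.rd c)
    (hd : ∀ c, 0 < G.rd c)
    (cu : ∀ j z, (G.wi j).fn z = 0 → ∃ p ∈ G.pu j, p.P.On z)
    (ca : ∀ z, imW.fn z = 0 → ∃ p ∈ G.pa, p.P.On z)
    (cc : ∀ c z, (cwI c (G.rn c) (G.rd c)).fn z = 0 → ∃ p ∈ G.pc c, p.P.On z)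
    (hI : ∀ k k' b c, Q.pI k k' b c → G.pI k k' b c = true)
    (hR : ∀ z ∈ AR.Dom D.ρ, z.im = 0 → ∀ k b c, Q.pR z k b c →
      ∃ q, z ∈ H265.Sq q ∧ G.pR q k b c = true)
    (hC : ∀ c k b b', Q.pC c k b b' → G.pC c k b b' = true)
    (c1 : G.chkI = true) (c2 : G.chkA = true) (c3 : G.chkC = true)
    {W : ℕ → ℂ → ℝ} (hsym : ∀ b z, W b (conj z) = W b z)
    (gu : ∀ j, ∀ p ∈ G.pu j, ∀ z, p.P.On z → ∀ x ∈ p.prs, W x.1 z ≤ W x.2 z)
    (ga : ∀ p ∈ G.pa, ∀ z, p.P.On z → ∀ x ∈ p.prs, W x.1 z ≤ W x.2 z)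
    (gc : ∀ c, ∀ p ∈ G.pc c, ∀ z, p.P.On z → ∀ x ∈ p.prs, W x.1 z ≤ W x.2 z) :
    D.sharp.toWD.Cond (fun b : Fin m => W b) := by
  have hcan : ∀ z : ℂ, D.cn z = AR.can (fun j => (D.w j).fn) G.TU z := by
    intro z; unfold AR.TopN.cn; rw [hT]
  refine D.cond Q (fun b z => hsym b z) ?_ ?_ ?_
  · intro z hz him b c hp
    by_cases hbc : b = c
    · rw [hbc]
    obtain ⟨q, hq, hp'⟩ := hR z hz him _ b c hp
    obtain ⟨p, hp1, hp2⟩ := ca z (by rw [imW_fn]; exact him)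
    have h1 : G.ctx p.P = true := G.ctx_sound hρ hd him.ge hz hp2
    unfold chkA at c2
    rw [List.all_eq_true] at c2
    have h2 := c2 p hp1
    rw [h1] at h2
    simp only [Bool.not_true, Bool.false_or] at h2
    rw [List.all_eq_true] at h2
    obtain ⟨asm', ha, _⟩ := mem_crl hw hp2 G.TU [] (by intro x hx; simp at hx)
    have h3 := h2 _ ha
    rw [List.all_eq_true] at h3
    have h4 := h3 q (List.mem_finRange q)
    rw [qok_sound hp2 hq] at h4
    simp only [Bool.not_true, Bool.false_or] at h4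
    rw [hcan] at hp'
    exact ga p hp1 z hp2 _ (has_sound h4 hp' hbc)
  · rw [hT]
    refine edges_of_epairs hw (pcs := G.pu) G.TU G.ctx _ ?_ ?_ ?_
    · rintro z ⟨h1, h2⟩ P hP
      exact G.ctx_sound hρ hd h1 h2 hP
    · exact fun j _ z _ h0 => cu j z h0
    · intro x hx z hz hOn b c hp
      by_cases hbc : b = c
      · rw [hbc]
      unfold chkI at c1
      rw [List.all_eq_true] at c1
      have h1 := c1 x hx
      have h2 : (G.pI x.2.1 x.2.2 b c || G.pI x.2.2 x.2.1 b c) = true := by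
        rw [Bool.or_eq_true]
        rcases hp with h | h
        · exact Or.inl (hI _ _ _ _ h)
        · exact Or.inr (hI _ _ _ _ h)
      obtain ⟨j, hj⟩ := mem_epairs hx
      exact gu j x.1 hj z hOn _ (has_sound h1 h2 hbc)
  · intro c z hz him b b' hp
    by_cases hbc : b = b'
    · rw [hbc]
    have h0 : (cwI c (G.rn c) (G.rd c)).fn z = 0 :=
      le_antisymm (cwI_nonpos (hd c) (hρ c) hz.le) (cwI_nonneg (hd c) (hρ c) hz.ge)
    obtain ⟨p, hp1, hp2⟩ := cc c z h0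
    unfold chkC at c3
    rw [List.all_eq_true] at c3
    have h1 := c3 c (List.mem_finRange c)
    rw [List.all_eq_true] at h1
    have h2 := h1 p hp1
    have e0 : p.P.neg imW = false := by
      by_contra hc
      rw [Bool.not_eq_false] at hc
      have := p.P.neg_sound hc hp2
      rw [imW_fn] at this
      linarith
    rw [e0, Bool.false_or, List.all_eq_true] at h2
    obtain ⟨asm', ha, _⟩ := mem_crl hw hp2 G.TU [] (by intro x hx; simp at hx)
    have h3 := h2 _ ha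
    have h4 := hC c _ b b' hp
    rw [hcan] at h4
    exact gc c p hp1 z hp2 _ (has_sound h3 h4 hbc)

end Geom

end Vale.Agent.P030.H250
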