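import Vale.Agent.P030.H250.Geo4

/-!
# P030, route N: from the chunks of the kernel engine to the hypotheses of `GeoN.n1`, `n2`, `n3`
(helper250)
-/

open Set
open Vale.Agent.P030.H580 Vale.Agent.P030.H532

namespace Vale.Agent.P030.H250

/-- the comparisons `prs` on the part `[a, b]` of a piece, in the closed upper half plane -/
def OnI (W : ℕ → ℂ → ℝ) (p : Piece) (prs : List (ℕ × ℕ)) (a b : ℤ) : Prop :=
  ∀ t : ℝ, (a : ℝ) ≤ t → t ≤ b → p.den t ≠ 0 → 0 ≤ (p.z t).im →
    ∀ x ∈ prs, W x.1 (p.z t) ≤ W x.2 (p.z t)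

variable {W : ℕ → ℂ → ℝ} {p : Piece} {prs : List (ℕ × ℕ)}

theorem OnI.trans {a b c : ℤ} (h : OnI W p prs a b) (h' : OnI W p prs b c) :
    OnI W p prs a c := by
  intro t h0 h1 hd him x hx
  rcases le_total t b with h2 | h2
  · exact h t h0 h2 hd him x hx
  · exact h' t h2 h1 hd him x hx

/-- one chunk in the form of `cells_sound` -/
theorem OnI.ofNat {T n : ℕ} {a b : ℤ} (ha : a = T) (hb : b = T + n)
    (h : ∀ t : ℝ, (T : ℝ) ≤ t → t ≤ T + n → p.den t ≠ 0 → 0 ≤ (p.z t).im →
      ∀ x ∈ prs, W x.1 (p.z t) ≤ W x.2 (p.z t)) : OnI W p prs a b := by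
  subst ha hb
  intro t h0 h1
  refine h t (by simpa using h0) (by simpa using h1)

theorem OnI.mono {a b a' b' : ℤ} (h : OnI W p prs a b) (ha : a ≤ a') (hb : b' ≤ b) :
    OnI W p prs a' b' := by
  intro t h0 h1
  exact h t (le_trans (by exact_mod_cast ha) h0) (h1.trans (by exact_mod_cast hb))

theorem OnI.sub {a b : ℤ} {prs' : List (ℕ × ℕ)} (h : OnI W p prs a b)
    (hs : (prs'.all fun x => prs.contains x) = true) : OnI W p prs' a b := by
  intro t h0 h1 hd him x hx
  rw [List.all_eq_true] at hs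
  exact h t h0 h1 hd him x (by simpa using hs x hx)

/-- **a list of chunks**: consecutive end points `T₀ :: l` -/
theorem OnI.ofList {a : ℤ} (l : List ℤ) (hne : l ≠ [])
    (h : List.IsChain (OnI W p prs) (a :: l)) : OnI W p prs a (l.getLast hne) := by
  induction l generalizing a with
  | nil => exact absurd rfl hne
  | cons b l ih =>
    rw [List.isChain_cons_cons] at h
    rcases l with _ | ⟨c, l⟩
    · exact h.1
    · rw [List.getLast_cons (by simp)]
      exact h.1.trans (ih (by simp) h.2)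

/-- **the hypothesis of `GeoN.n1`, `n2`, `n3` for a piece** -/
theorem OnI.good {m : ℕ} {q : PP} (h : OnI W q.P.p q.prs q.P.t0 q.P.t1) :
    GeoN.Good (fun b : Fin m => W b.val) q := by
  rintro z ⟨t, h0, h1, hd, rfl⟩ him b c hbc
  exact h t h0 h1 hd him _ hbc

/-- all pieces of a list -/
theorem good_all {m : ℕ} {l : List PP} (h : ∀ q ∈ l, OnI W q.P.p q.prs q.P.t0 q.P.t1) :
    ∀ q ∈ l, GeoN.Good (fun b : Fin m => W b.val) q :=
  fun q hq => (h q hq).good

/-- a negated / reversed convention: `Good` for the piece with the comparisons of `prs` -/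
theorem OnI.good_mk {m : ℕ} {P : Pc} (h : OnI W P.p prs P.t0 P.t1) :
    GeoN.Good (fun b : Fin m => W b.val) ⟨P, prs⟩ := OnI.good (q := ⟨P, prs⟩) h

end Vale.Agent.P030.H250
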